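import Vale.Agent.Lib.P038.Sat.Shapes.S6_7t
noncomputable section
namespace Vale.Agent.Lib.P038.Sat.I.M3_7
open Vale.Agent.Lib.P038.Sat
def W : Nat := 119
def M : Nat := 664613997892457936451903530140172287
def GT : Nat := 1135605028433210810385194598916271309985197860964747752141852655432769088949181624655878415494899659361189727676584671450877689761081421626905141799041460864684411807932953669807771958028145694138948592234193588172225012852221534654079529497770091773014651685347370477544592773212262400154874269967951993787732717841939573593161479255040758388156642595583807570328638319889312215045804355433143689648440724293846627032073555471166408499532073082686769600961946489206050043316381653661457392565831062584260811929186827917349997069986935199078368488994478211674984990662444905608590502559836690764491851262074022151671204934273255001255704355128239881286938563150646480507129946296329333461792120648309812080734893300351101273696648546245345661408778296766458092723951388751740572521624031948218068341889623832860466840503047560005673399018483076904114341289729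
def h0 : T := (T.l (nat_lit 0))
def H : T := h0
theorem hlast : getB H 0 = 0 := by decide +kernel
end Vale.Agent.Lib.P038.Sat.I.M3_7
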